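import Mathlib.Analysis.InnerProductSpace.ProdL2
import Vale.Agent.P220.R2.H57.B.Defs

/-!
# The complex Stiefel base, diagonal symmetries
-/

namespace Vale.Agent.P220.R2.H562.C

variable {V : Type} [NormedAddCommGroup V] [InnerProductSpace ℝ V]

/-- The unit vectors `(x, y)` of the orthogonal sum of two copies of `V` with `x` orthogonal to `y`
and to `J y`. -/
def OrthPairs (J : V ≃ₗᵢ[ℝ] V) : Set (WithLp 2 (V × V)) :=
  {x | ‖x.fst‖ ^ 2 + ‖x.snd‖ ^ 2 = 1 ∧ inner ℝ x.fst x.snd = (0 : ℝ) ∧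
    inner ℝ x.fst (J x.snd) = (0 : ℝ)}

/-- `g` is a rotation: a linear isometry of determinant one. -/
def IsRotation (g : V ≃ₗᵢ[ℝ] V) : Prop := LinearMap.det (g.toLinearEquiv : V →ₗ[ℝ] V) = 1

/-- `g` is unitary: a linear isometry that commutes with `J`. -/
def IsUnitary (J g : V ≃ₗᵢ[ℝ] V) : Prop := ∀ x, g (J x) = J (g x)

/-- Every closed exact Lagrangian `L` of dimension `k` in `T*Q`, where `Q` is a submanifold of
`V ⊕ V`, that is invariant under the diagonal action `(x, y) ↦ (g x, g y)`, lifted to `T*Q`, of all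
linear isometries `g` of `V` with the property `P`, is Hamiltonian isotopic to the zero section. -/
def NearbyInvariant (k : ℕ) (Q : Set (WithLp 2 (V × V))) (P : (V ≃ₗᵢ[ℝ] V) → Prop) : Prop :=
  ∀ L : Set (WithLp 2 (V × V) × WithLp 2 (V × V)), H57.IsClosedExactLagrangian k Q L →
    (∀ g, P g → ∀ z ∈ L, (WithLp.toLp 2 (g z.1.fst, g z.1.snd),
      WithLp.toLp 2 (g z.2.fst, g z.2.snd)) ∈ L) → H57.HamIsotopicToZero Q L

end Vale.Agent.P220.R2.H562.C
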